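import Vale.Agent.P125F.Bridge2
import Vale.Agent.P125F.Main2

/-!
# Nontrivial Markov type implies superreflexivity

A normed space with Markov type `p > 1` has no James systems of all lengths.
-/

namespace Vale.Agent.Results.P125.MarkovTypeNoJames

universe u

/-- A finite stationary reversible Markov chain: `w` is the stationary law, `P` the transition
matrix. -/
structure Chain (S : Type) [Fintype S] where
  w : S → ℝ
  P : Matrix S S ℝ
  w_nonneg : ∀ x, 0 ≤ w x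
  w_sum : ∑ x, w x = 1
  P_nonneg : ∀ x y, 0 ≤ P x y
  P_sum : ∀ x, ∑ y, P x y = 1
  reversible : ∀ x y, w x * P x y = w y * P y x

/-- Markov type `p`: there is a constant `K` such that for every finite stationary reversible
chain `Z`, every map `f` of the state space to `X` and every time `t ≥ 1`,
`E ‖f(Z_t) - f(Z_0)‖ ^ p ≤ K ^ p * t * E ‖f(Z_1) - f(Z_0)‖ ^ p`. -/
def HasMarkovType (X : Type u) [NormedAddCommGroup X] [NormedSpace ℝ X] (p : ℝ) : Prop :=
  ∃ K : ℝ, 0 ≤ K ∧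
    ∀ (S : Type) [Fintype S] [DecidableEq S] (C : Chain S) (f : S → X) (t : ℕ), 1 ≤ t →
      ∑ x, ∑ y, C.w x * (C.P ^ t) x y * ‖f y - f x‖ ^ p
        ≤ K ^ p * t * ∑ x, ∑ y, C.w x * C.P x y * ‖f y - f x‖ ^ p

/-- A James system of length `N` with constant `θ`: vectors `x_j` and functionals `f_i` of norm
at most one with `f_i (x_j) = θ` for `i ≤ j` and `f_i (x_j) = 0` for `i > j`. -/
def HasJamesSystem (X : Type u) [NormedAddCommGroup X] [NormedSpace ℝ X] (θ : ℝ) (N : ℕ) : Prop :=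
  ∃ (x : Fin N → X) (f : Fin N → (X →L[ℝ] ℝ)), (∀ j, ‖x j‖ ≤ 1) ∧ (∀ i, ‖f i‖ ≤ 1) ∧
    ∀ i j, f i (x j) = if i ≤ j then θ else 0

theorem result (X : Type u) [NormedAddCommGroup X] [NormedSpace ℝ X] (p : ℝ) (hp : 1 < p)
    (hX : HasMarkovType X p) (θ : ℝ) (hθ : 0 < θ) : ∃ N : ℕ, ¬ HasJamesSystem X θ N := by
  obtain ⟨K, hK, h⟩ := hX
  refine P125F.noJames2 (fun Y _ _ p K hp hK hY θ hθ => P125F.main2 hp hK hY hθ) hp hK ?_ hθ
  intro S _ _ C f t ht
  exact h S ⟨C.w, Matrix.of C.P, C.w_nonneg, C.w_sum, C.P_nonneg, C.P_sum, C.rev⟩ f t ht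

end Vale.Agent.Results.P125.MarkovTypeNoJames
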