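import Vale.Agent.P125F.FinalU24
import Vale.Agent.P125F.Main2

/-!
# Nontrivial Markov type implies superreflexivity

Every real normed space (in particular every real Banach space) with Markov type `p` for some
`p > 1` admits an equivalent uniformly convex norm.
-/

namespace Vale.Agent.Results.P125.MarkovTypeSuperreflexive

universe u

/-- A finite stationary reversible Markov chain: `w` is the stationary law, `P` the transition
matrix. -/
structure Chain (S : Type) [Fintype S] where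
  w : S → ℝ
  P : Matrix S S ℝ
  w_nonneg : ∀ x, 0 ≤ w x
  w_sum : ∑ x, w x = 1
  P_nonneg : ∀ x y, 0 ≤ P x y
  P_sum : ∀ x, ∑ y, P x y = 1
  reversible : ∀ x y, w x * P x y = w y * P y x

/-- Markov type `p`: there is a constant `K` such that for every finite stationary reversible
chain `Z`, every map `f` of the state space to `X` and every time `t ≥ 1`,
`E ‖f(Z_t) - f(Z_0)‖ ^ p ≤ K ^ p * t * E ‖f(Z_1) - f(Z_0)‖ ^ p`. -/
def HasMarkovType (X : Type u) [NormedAddCommGroup X] [NormedSpace ℝ X] (p : ℝ) : Prop :=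
  ∃ K : ℝ, 0 ≤ K ∧
    ∀ (S : Type) [Fintype S] [DecidableEq S] (C : Chain S) (f : S → X) (t : ℕ), 1 ≤ t →
      ∑ x, ∑ y, C.w x * (C.P ^ t) x y * ‖f y - f x‖ ^ p
        ≤ K ^ p * t * ∑ x, ∑ y, C.w x * C.P x y * ‖f y - f x‖ ^ p

/-- `nu` is a norm on the real vector space `X` equivalent to the given norm. -/
structure IsEquivalentNorm (X : Type u) [NormedAddCommGroup X] [NormedSpace ℝ X]
    (nu : X → ℝ) : Prop where
  add_le : ∀ x y, nu (x + y) ≤ nu x + nu y
  smul : ∀ (c : ℝ) (x : X), nu (c • x) = |c| * nu x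
  equiv : ∃ a b : ℝ, 0 < a ∧ 0 < b ∧ ∀ x, a * ‖x‖ ≤ nu x ∧ nu x ≤ b * ‖x‖

/-- Uniform convexity of the norm `nu`. -/
def IsUniformlyConvex {X : Type u} [AddCommGroup X] [Module ℝ X] (nu : X → ℝ) : Prop :=
  ∀ ε : ℝ, 0 < ε → ε ≤ 2 → ∃ δ : ℝ, 0 < δ ∧
    ∀ x y : X, nu x ≤ 1 → nu y ≤ 1 → ε ≤ nu (x - y) → nu ((1 / 2 : ℝ) • (x + y)) ≤ 1 - δ

/-- `X` admits an equivalent uniformly convex norm. -/
def Superreflexive (X : Type u) [NormedAddCommGroup X] [NormedSpace ℝ X] : Prop :=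
  ∃ nu : X → ℝ, IsEquivalentNorm X nu ∧ IsUniformlyConvex nu

theorem result (X : Type u) [NormedAddCommGroup X] [NormedSpace ℝ X] (p : ℝ) (hp : 1 < p)
    (hX : HasMarkovType X p) : Superreflexive X := by
  obtain ⟨K, hK, h⟩ := hX
  have hX' : P125F.XMT X p (K + 1) := by
    intro S _ _ C f t ht
    refine (h S ⟨C.w, Matrix.of C.P, C.w_nonneg, C.w_sum, C.P_nonneg, C.P_sum, C.rev⟩
      f t ht).trans ?_
    have h0 : 0 ≤ ∑ x, ∑ y, C.w x * C.P x y * ‖f y - f x‖ ^ p :=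
      Finset.sum_nonneg fun x _ => Finset.sum_nonneg fun y _ =>
        mul_nonneg (mul_nonneg (C.w_nonneg x) (C.P_nonneg x y))
          (Real.rpow_nonneg (norm_nonneg _) _)
    refine mul_le_mul_of_nonneg_right (mul_le_mul_of_nonneg_right ?_ (Nat.cast_nonneg t)) h0
    exact Real.rpow_le_rpow hK (by linarith) (by linarith)
  obtain ⟨nm, h1, h2⟩ := P125F.verb24 p (K + 1) hp (by linarith)
    (fun Y _ _ p K hp hK hY θ hθ => P125F.main2 hp hK hY hθ) hX'
  refine ⟨nm, ⟨map_add_le_add nm, fun c x => ?_, 1, 5, one_pos, by norm_num, fun x => ?_⟩, ?_⟩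
  · rw [map_smul_eq_mul, Real.norm_eq_abs]
  · rw [one_mul]
    exact h1 x
  · intro ε hε _
    obtain ⟨δ, hδ, h3⟩ := h2 ε hε
    exact ⟨δ, hδ, h3⟩

end Vale.Agent.Results.P125.MarkovTypeSuperreflexive
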