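import Vale.Agent.P125S.R10

/-!
# The summing operator has nontrivial Markov type

The summing operator from `l_1` to `l_∞` factors through no superreflexive space, but it has
Markov type `35/34`.
-/

namespace Vale.Agent.Results.P125.SummingOperator

open Finset

/-- A finite stationary reversible Markov chain: `w` is the stationary law, `P` the transition
matrix. -/
structure Chain (S : Type) [Fintype S] where
  w : S → ℝ
  P : Matrix S S ℝ
  w_nonneg : ∀ x, 0 ≤ w x
  w_sum : ∑ x, w x = 1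
  P_nonneg : ∀ x y, 0 ≤ P x y
  P_sum : ∀ x, ∑ y, P x y = 1
  reversible : ∀ x y, w x * P x y = w y * P y x

/-- Markov type `p` with constant `K` for a bounded operator `T`: for every finite stationary
reversible chain `Z`, every map `f` of the state space to `X` and every time `t ≥ 1`,
`E ‖T f(Z_t) - T f(Z_0)‖ ^ p ≤ K ^ p * t * E ‖f(Z_1) - f(Z_0)‖ ^ p`.
For `X = Y` and `T` the identity this is Markov type `p` of `X` with constant `K`. -/
def OpMarkovType {X Y : Type} [NormedAddCommGroup X] [NormedSpace ℝ X]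
    [NormedAddCommGroup Y] [NormedSpace ℝ Y] (T : X →L[ℝ] Y) (p K : ℝ) : Prop :=
  ∀ (S : Type) [Fintype S] [DecidableEq S] (C : Chain S) (f : S → X) (t : ℕ), 1 ≤ t →
    ∑ x, ∑ y, C.w x * (C.P ^ t) x y * ‖T (f y) - T (f x)‖ ^ p
      ≤ K ^ p * t * ∑ x, ∑ y, C.w x * C.P x y * ‖f y - f x‖ ^ p

/-- A space is superreflexive if it admits an equivalent uniformly convex norm, that is, if it is
linearly homeomorphic to a uniformly convex space. -/
def Superreflexive (Z : Type) [NormedAddCommGroup Z] [NormedSpace ℝ Z] : Prop :=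
  ∃ (W : Type) (_ : NormedAddCommGroup W) (_ : NormedSpace ℝ W) (_ : UniformConvexSpace W),
    Nonempty (Z ≃L[ℝ] W)

/-- `T` factors through the space `Z`. -/
def FactorsThrough {X Y : Type} [NormedAddCommGroup X] [NormedSpace ℝ X]
    [NormedAddCommGroup Y] [NormedSpace ℝ Y] (T : X →L[ℝ] Y)
    (Z : Type) [NormedAddCommGroup Z] [NormedSpace ℝ Z] : Prop :=
  ∃ (A : X →L[ℝ] Z) (B : Z →L[ℝ] Y), T = B.comp A

/-- The space `l_1` of real sequences. -/
abbrev Ell1 : Type := lp (fun _ : ℕ => ℝ) 1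

/-- The space `l_∞` of real sequences. -/
abbrev EllInf : Type := lp (fun _ : ℕ => ℝ) ⊤

theorem result : ∃ T : Ell1 →L[ℝ] EllInf,
    (∀ (v : Ell1) (k : ℕ), (T v : ℕ → ℝ) k = ∑ c ∈ range k, (v : ℕ → ℝ) c) ∧
    (∃ K : ℝ, 0 < K ∧ OpMarkovType T (35 / 34) K) ∧
    (∀ (Z : Type) [NormedAddCommGroup Z] [NormedSpace ℝ Z],
      Superreflexive Z → ¬ FactorsThrough T Z) := by
  obtain ⟨T, hT⟩ := P125S.summing_exists
  refine ⟨T, hT, ?_, ?_⟩
  · obtain ⟨K, hK, hf⟩ := P125S.markov_finite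
    refine ⟨K ^ (34 / 35 : ℝ), Real.rpow_pos_of_pos hK _, ?_⟩
    intro S _ _ C f t ht
    exact P125S.m1_main K hK hf T hT S
      ⟨C.w, C.P, C.w_nonneg, C.w_sum, C.P_nonneg, C.P_sum, C.reversible⟩ f t ht
  · rintro Z _ _ ⟨W, _, _, _, ⟨e⟩⟩ ⟨A, B, hAB⟩
    refine P125S.summing_no_factor T hT W ((e : Z →L[ℝ] W).comp A)
      (B.comp (e.symm : W →L[ℝ] Z)) ?_
    rw [hAB]
    ext v k
    simp

end Vale.Agent.Results.P125.SummingOperator
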