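import Vale.Agent.P125.SummingB

open Finset

namespace Vale.Agent.Results.P125.SummingOperators

/-- (q, P) is a finite stationary reversible Markov chain: q is a probability vector, P is a
stochastic matrix, and q x P x y = q y P y x. -/
structure ReversibleChain {S : Type} [Fintype S] (q : S → ℝ) (P : Matrix S S ℝ) : Prop where
  prob_nonneg : ∀ x, 0 ≤ q x
  prob_sum : ∑ x, q x = 1
  row_nonneg : ∀ x y, 0 ≤ P x y
  row_sum : ∀ x, ∑ y, P x y = 1
  detailed_balance : ∀ x y, q x * P x y = q y * P y x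

/-- The expectation of g (Z_0) (Z_T) for the stationary chain Z. -/
def expectation {S : Type} [Fintype S] [DecidableEq S] (q : S → ℝ) (P : Matrix S S ℝ) (T : ℕ)
    (g : S → S → ℝ) : ℝ :=
  ∑ x, ∑ y, q x * (P ^ T) x y * g x y

/-- The norm of l_1^n. -/
def l1norm {n : ℕ} (v : Fin n → ℝ) : ℝ := ∑ i, |v i|

/-- The summing operator sigma_n : (v_1, ..., v_n) to (v_1, v_1 + v_2, ..., v_1 + ... + v_n). -/
def summing {n : ℕ} (v : Fin n → ℝ) : Fin n → ℝ := fun t => ∑ i ∈ Finset.Iic t, v i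

theorem Iic_sum {n : ℕ} (G : ℕ → ℝ) (t : Fin n) :
    ∑ i ∈ Finset.Iic t, G i = ∑ i ∈ range ((t : ℕ) + 1), G i := by
  have h1 : ∑ i ∈ Finset.Iic t, G i = ∑ j ∈ (Finset.Iic t).map Fin.valEmbedding, G j := by
    rw [Finset.sum_map]; rfl
  rw [h1, Fin.map_valEmbedding_Iic]
  congr 1
  ext j
  simp

/-- The norm on Fin n → ℝ below is the supremum norm. -/
theorem result (S : Type) [Fintype S] [DecidableEq S] (q : S → ℝ) (P : Matrix S S ℝ)
    (hP : ReversibleChain q P) (n : ℕ) (f : S → Fin n → ℝ) (L D : ℝ) (hL : 0 < L) (hD : 0 < D)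
    (hf : ∀ x y, 0 < P x y → l1norm (f y - f x) ≤ L)
    (hd : ∀ x, ∑ y, P x y * l1norm (f y - f x) ≤ D) (T : ℕ) :
    expectation q P T (fun x y => ‖summing (f y - f x)‖ ^ ((9 : ℝ) / 8))
        ≤ 226 * L ^ ((1 : ℝ) / 8) * D * T ∧
    expectation q P T (fun x y => ‖summing (f y - f x)‖ ^ 3)
        ≤ 225 * L ^ 3 * (T * D / L + (T * D / L) ^ ((8 : ℝ) / 3)) := by
  have h : Vale.Agent.P125.Rev q P :=
    ⟨hP.prob_nonneg, hP.prob_sum, hP.row_nonneg, hP.row_sum, hP.detailed_balance⟩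
  set g : S → ℕ → ℝ := fun x i => if hi : i < n then f x ⟨i, hi⟩ / L else 0 with hg
  have hgi : ∀ (x : S) (i : Fin n), g x i = f x i / L := by
    intro x i
    simp [hg]
  have hww : ∀ x y, Vale.Agent.P125.ww g n x y = l1norm (f y - f x) / L := by
    intro x y
    unfold Vale.Agent.P125.ww l1norm
    rw [Finset.sum_range, Finset.sum_div]
    refine Finset.sum_congr rfl fun i _ => ?_
    rw [hgi, hgi, ← sub_div, abs_div, abs_of_pos hL]
    rfl
  have hsum : ∀ x y (t : Fin n), summing (f y - f x) t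
      = L * (Vale.Agent.P125.FF g t y - Vale.Agent.P125.FF g t x) := by
    intro x y t
    unfold Vale.Agent.P125.FF summing
    rw [← Iic_sum, ← Iic_sum, ← Finset.sum_sub_distrib, Finset.mul_sum]
    refine Finset.sum_congr rfl fun i _ => ?_
    rw [hgi, hgi, Pi.sub_apply]
    field_simp
  have h3pt : ∀ z w (t : ℕ), t < n →
      |Vale.Agent.P125.FF g t w - Vale.Agent.P125.FF g t z| ^ 3
        ≤ 3 * ∑ t ∈ range n, |g w t - g z t|
          * (Vale.Agent.P125.FF g t w - Vale.Agent.P125.FF g t z) ^ 2 := by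
    intro z w t ht
    have h1 := Vale.Agent.P125.kol' (fun i => g w i - g z i) t
    have e1 : ∀ j, ∑ i ∈ range (j + 1), (g w i - g z i)
        = Vale.Agent.P125.FF g j w - Vale.Agent.P125.FF g j z := by
      intro j
      unfold Vale.Agent.P125.FF
      rw [Finset.sum_sub_distrib]
    simp only [e1] at h1
    refine le_trans h1 (mul_le_mul_of_nonneg_left ?_ (by norm_num))
    refine Finset.sum_le_sum_of_subset_of_nonneg ?_ fun j _ _ =>
      mul_nonneg (abs_nonneg _) (sq_nonneg _)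
    intro j hj
    rw [Finset.mem_range] at hj ⊢
    omega
  set X : S → S → ℝ := fun z w => ‖summing (f w - f z)‖ / L with hX
  have hX0 : ∀ z w, 0 ≤ X z w := fun z w => div_nonneg (norm_nonneg _) hL.le
  have hX1 : ∀ z w, X z w ≤ Vale.Agent.P125.ww g n z w := by
    intro z w
    simp only [hX]
    rw [div_le_iff₀ hL, pi_norm_le_iff_of_nonneg (mul_nonneg
      (Vale.Agent.P125.ww_nonneg g n z w) hL.le)]
    intro t
    rw [hsum, Real.norm_eq_abs, abs_mul, abs_of_pos hL, mul_comm]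
    exact mul_le_mul_of_nonneg_right (Vale.Agent.P125.FF_diff g n z w t t.isLt) hL.le
  have hX3 : ∀ z w, X z w ^ 3
      ≤ 3 * ∑ t ∈ range n, |g w t - g z t|
          * (Vale.Agent.P125.FF g t w - Vale.Agent.P125.FF g t z) ^ 2 := by
    intro z w
    set B := 3 * ∑ t ∈ range n, |g w t - g z t|
          * (Vale.Agent.P125.FF g t w - Vale.Agent.P125.FF g t z) ^ 2 with hB
    have hB0 : 0 ≤ B := by
      refine mul_nonneg (by norm_num) (Finset.sum_nonneg fun j _ => ?_)
      exact mul_nonneg (abs_nonneg _) (sq_nonneg _)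
    have hr0 : 0 ≤ B ^ ((1 : ℝ) / 3) := Real.rpow_nonneg hB0 _
    have hr3 : (B ^ ((1 : ℝ) / 3)) ^ 3 = B := by
      rw [← Real.rpow_natCast, ← Real.rpow_mul hB0]
      norm_num
    have h1 : X z w ≤ B ^ ((1 : ℝ) / 3) := by
      simp only [hX]
      rw [div_le_iff₀ hL, pi_norm_le_iff_of_nonneg (mul_nonneg hr0 hL.le)]
      intro t
      rw [hsum, Real.norm_eq_abs, abs_mul, abs_of_pos hL, mul_comm]
      refine mul_le_mul_of_nonneg_right ?_ hL.le
      refine le_of_pow_le_pow_left₀ (n := 3) (by norm_num) hr0 ?_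
      rw [hr3]
      exact h3pt z w t t.isLt
    calc X z w ^ 3 ≤ (B ^ ((1 : ℝ) / 3)) ^ 3 := pow_le_pow_left₀ (hX0 z w) h1 3
      _ = B := hr3
  have hf' : ∀ x y, 0 < P x y → Vale.Agent.P125.ww g n x y ≤ 1 := by
    intro x y hxy
    rw [hww, div_le_one hL]
    exact hf x y hxy
  have hd' : ∀ x, ∑ y, P x y * Vale.Agent.P125.ww g n x y ≤ D / L := by
    intro x
    rw [le_div_iff₀ hL, Finset.sum_mul]
    refine le_trans (le_of_eq ?_) (hd x)
    refine Finset.sum_congr rfl fun y _ => ?_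
    rw [hww]
    field_simp
  obtain ⟨b1, b2⟩ := Vale.Agent.P125.final_bounds h g n (D / L) (div_pos hD hL) hf' hd' T X
    hX0 hX1 hX3
  have hXn : ∀ x y, ‖summing (f y - f x)‖ = L * X x y := by
    intro x y
    simp only [hX]
    field_simp
  have hL98 : L ^ ((9 : ℝ) / 8) = L ^ ((1 : ℝ) / 8) * L := by
    rw [show ((9 : ℝ) / 8) = 1 / 8 + 1 by norm_num, Real.rpow_add hL, Real.rpow_one]
  constructor
  · have e1 : expectation q P T (fun x y => ‖summing (f y - f x)‖ ^ ((9 : ℝ) / 8))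
        = L ^ ((9 : ℝ) / 8)
          * Vale.Agent.P125.EE q (P ^ T) (fun x y => X x y ^ ((9 : ℝ) / 8)) := by
      rw [← Vale.Agent.P125.EE_smul]
      unfold expectation Vale.Agent.P125.EE
      refine Finset.sum_congr rfl fun x _ => Finset.sum_congr rfl fun y _ => ?_
      show q x * (P ^ T) x y * ‖summing (f y - f x)‖ ^ ((9 : ℝ) / 8)
        = q x * (P ^ T) x y * (L ^ ((9 : ℝ) / 8) * X x y ^ ((9 : ℝ) / 8))
      rw [hXn x y, Real.mul_rpow hL.le (hX0 x y)]
    rw [e1]
    have := mul_le_mul_of_nonneg_left b2 (Real.rpow_nonneg hL.le ((9 : ℝ) / 8))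
    refine le_trans this (le_of_eq ?_)
    rw [hL98]
    field_simp
  · have e1 : expectation q P T (fun x y => ‖summing (f y - f x)‖ ^ 3)
        = L ^ 3 * Vale.Agent.P125.EE q (P ^ T) (fun x y => X x y ^ 3) := by
      rw [← Vale.Agent.P125.EE_smul]
      unfold expectation Vale.Agent.P125.EE
      refine Finset.sum_congr rfl fun x _ => Finset.sum_congr rfl fun y _ => ?_
      show q x * (P ^ T) x y * ‖summing (f y - f x)‖ ^ 3
        = q x * (P ^ T) x y * (L ^ 3 * X x y ^ 3)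
      rw [hXn x y, mul_pow]
    rw [e1]
    have := mul_le_mul_of_nonneg_left b1 (pow_nonneg hL.le 3)
    refine le_trans this (le_of_eq ?_)
    rw [mul_div_assoc]
    ring

end Vale.Agent.Results.P125.SummingOperators
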